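import Vale.Agent.Results.P197.A00_Saxl

namespace Vale.Agent.Results.P197.A000_SaxlIntertwiner

open Vale.Agent.P197

/-- The space of intertwining maps (linear maps commuting with the action of every permutation of
`n` points) from the Specht module of `nu` to the tensor product, with the diagonal action, of the
Specht modules of `lam` and `mu`. -/
abbrev HomSpace (n : ℕ) (lam mu nu : YoungDiagram) : Type :=
  Representation.IntertwiningMap (spechtRep nu (Fin n))
    ((spechtRep lam (Fin n)).tprod (spechtRep mu (Fin n)))

/-- `Occurs n lam mu nu`: there is a nonzero intertwining map from the Specht module of `nu` to the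
tensor product of the Specht modules of `lam` and `mu`. -/
def Occurs (n : ℕ) (lam mu nu : YoungDiagram) : Prop :=
  ∃ F : HomSpace n lam mu nu, F ≠ 0

theorem occurs_of_kron_pos {n : ℕ} {lam mu nu : YoungDiagram}
    (h : 0 < kron n lam mu nu) : Occurs n lam mu nu := by
  unfold kron at h
  unfold Occurs
  by_contra hcon0
  have hcon : ∀ F : HomSpace n lam mu nu, F = 0 :=
    fun F => by_contra (fun hF => hcon0 ⟨F, hF⟩)
  have hsub : Subsingleton (HomSpace n lam mu nu) :=
    ⟨fun a b => by rw [hcon a, hcon b]⟩
  rw [Module.finrank_zero_of_subsingleton] at h
  exact lt_irrefl _ h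

/-- Saxl's conjecture with the Kronecker coefficient unfolded: for every `m` and every Young diagram
`nu` with `N = m (m + 1) / 2` cells there is a nonzero intertwining map from the Specht module of
`nu` to the tensor square of the Specht module of the staircase of size `m`. -/
theorem result (m : ℕ) (nu : YoungDiagram) (hcard : nu.card = m * (m + 1) / 2) :
    Occurs (m * (m + 1) / 2) (staircase m) (staircase m) nu :=
  occurs_of_kron_pos (Vale.Agent.Results.P197.A00_Saxl.result m nu hcard)

end Vale.Agent.Results.P197.A000_SaxlIntertwiner
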