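import Vale.Agent.Results.P197.A00_Saxl

namespace Vale.Agent.Results.P197.A000_SaxlUniversal

open Vale.Agent.P197

/-- The tensor square of the Specht module of `lam` (a partition of `n`) is universal: every
partition `nu` of `n` has positive Kronecker coefficient `g(lam, lam, nu)`. -/
def Universal (n : ℕ) (lam : YoungDiagram) : Prop :=
  ∀ nu : YoungDiagram, nu.card = n → 0 < kron n lam lam nu

/-- Saxl's conjecture in the vocabulary of the problem: for every `m ≥ 1` the staircase of size `m`
is a partition of `m (m + 1) / 2` and the tensor square of its Specht module is universal. -/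
theorem result (m : ℕ) (_hm : 1 ≤ m) :
    (staircase m).card = m * (m + 1) / 2 ∧ Universal (m * (m + 1) / 2) (staircase m) :=
  ⟨card_stair m, fun nu hcard => Vale.Agent.Results.P197.A00_Saxl.result m nu hcard⟩

end Vale.Agent.Results.P197.A000_SaxlUniversal
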