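import Vale.Agent.P197.StairContent
import Vale.Agent.P197.MixFinal

open Vale.Agent.P197 in
theorem Vale.Agent.Results.P197.A00_Combined.result :
    (∀ (m : ℕ), 3 ≤ m → ∀ (mu : YoungDiagram),
      mu.card = m * (m + 1) / 2 → mu.colLen 0 ≤ m →
      (∀ k, ∑ i ∈ Finset.range k, (m - i) ≤ ∑ i ∈ Finset.range k, mu.rowLen i + 1) →
      0 < kron (m * (m + 1) / 2) (staircase m) (staircase m) mu) ∧
    (∀ (m k : ℕ) (nu : YoungDiagram) (T : ℕ × ℕ → ℕ), StripFilling m k nu T →
      0 < kron (m * (m + 1) / 2) (staircase m) (staircase m) nu) :=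
  ⟨fun _ hm mu hcard hrows hdom => stair_kron_pos hm mu hcard hrows hdom,
   fun m k nu T hT => strip_kron_pos m k nu T hT⟩
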