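import Vale.Agent.P197.Sx.Final

open Vale.Agent.P197 in
theorem Vale.Agent.Results.P197.A00_Saxl.result (m : ℕ) (nu : YoungDiagram)
    (hcard : nu.card = m * (m + 1) / 2) :
    0 < kron (m * (m + 1) / 2) (staircase m) (staircase m) nu :=
  saxl m nu hcard
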