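import Vale.Agent.P197.StairContent

open Vale.Agent.P197 in
theorem Vale.Agent.Results.P197.A0_DominanceSlack.result (m : ℕ) (hm : 3 ≤ m) (mu : YoungDiagram)
    (hcard : mu.card = m * (m + 1) / 2) (hrows : mu.colLen 0 ≤ m)
    (hdom : ∀ k, ∑ i ∈ Finset.range k, (m - i) ≤ ∑ i ∈ Finset.range k, mu.rowLen i + 1) :
    0 < kron (m * (m + 1) / 2) (staircase m) (staircase m) mu :=
  stair_kron_pos hm mu hcard hrows hdom
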